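import Mathlib

namespace Vale.Agent.Lib.P329

open scoped IsMulCommutative commutatorElement

variable {G : Type} [Group G]

/-- The hypotheses on the subgroup `A`: it contains all commutators, and the commutators with the
elements of `A` are central. (With `A` commutative: `G` is nilpotent of class at most three.) -/
structure Cl3 (A : Subgroup G) : Prop where
  comm_mem : ∀ g h : G, ⁅g, h⁆ ∈ A
  central : ∀ (g x : G), x ∈ A → ∀ h : G, ⁅g, x⁆ * h = h * ⁅g, x⁆

variable {A : Subgroup G} (hA : Cl3 A)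

/-- the commutator of two elements, as an element of `A` -/
def c1 (g h : G) : A := ⟨⁅g, h⁆, hA.comm_mem g h⟩

/-- the commutator of an element of `G` and an element of `A`, as an element of `A` -/
def c2 (g : G) (x : A) : A := ⟨⁅g, (x : G)⁆, hA.comm_mem g x⟩

lemma coe_c1 (g h : G) : (c1 hA g h : G) = ⁅g, h⁆ := rfl

lemma coe_c2 (g : G) (x : A) : (c2 hA g x : G) = ⁅g, (x : G)⁆ := rfl

lemma c1_self (d : G) : c1 hA d d = 1 := by
  apply Subtype.ext
  simp [coe_c1]

lemma c1_one_left (d : G) : c1 hA 1 d = 1 := by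
  apply Subtype.ext
  simp [coe_c1]

lemma c2_one_right (g : G) : c2 hA g 1 = 1 := by
  apply Subtype.ext
  simp [coe_c2]

lemma c2_one_left (x : A) : c2 hA 1 x = 1 := by
  apply Subtype.ext
  simp [coe_c2]

include hA in
/-- conjugation fixes the central commutators -/
lemma conj_central (g k : G) (x : A) : k * ⁅g, (x : G)⁆ * k⁻¹ = ⁅g, (x : G)⁆ := by
  rw [← hA.central g x x.2 k, mul_assoc, mul_inv_cancel, mul_one]

lemma c2_mul_left (g h : G) (x : A) : c2 hA (g * h) x = c2 hA g x * c2 hA h x := by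
  apply Subtype.ext
  simp only [coe_c2, Subgroup.coe_mul]
  have e : ⁅g * h, (x : G)⁆ = g * ⁅h, (x : G)⁆ * g⁻¹ * ⁅g, (x : G)⁆ := by
    simp only [commutatorElement_def]
    group
  rw [e, conj_central hA h g x, hA.central h x x.2]

lemma c2_mul_right (g : G) (x y : A) : c2 hA g (x * y) = c2 hA g x * c2 hA g y := by
  apply Subtype.ext
  simp only [coe_c2, Subgroup.coe_mul]
  have e : ⁅g, (x : G) * (y : G)⁆ = ⁅g, (x : G)⁆ * ((x : G) * ⁅g, (y : G)⁆ * (x : G)⁻¹) := by
    simp only [commutatorElement_def]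
    group
  rw [e, conj_central hA g x y]

lemma c2_c2 (g h : G) (x : A) : c2 hA g (c2 hA h x) = 1 := by
  apply Subtype.ext
  simp only [coe_c2, Subgroup.coe_one]
  rw [commutatorElement_def, conj_central hA h g x, mul_inv_cancel]

lemma c2_pow_left (g : G) (x : A) (n : ℕ) : c2 hA (g ^ n) x = c2 hA g x ^ n := by
  induction n with
  | zero => simp [c2_one_left]
  | succ n ih => rw [pow_succ, c2_mul_left, ih, pow_succ]

lemma c2_pow_right (g : G) (x : A) (n : ℕ) : c2 hA g (x ^ n) = c2 hA g x ^ n := by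
  induction n with
  | zero => simp [c2_one_right]
  | succ n ih => rw [pow_succ, c2_mul_right, ih, pow_succ]

lemma c2_prod_right [IsMulCommutative A] {ι : Type} (g : G) (s : Finset ι) (f : ι → A) :
    c2 hA g (∏ i ∈ s, f i) = ∏ i ∈ s, c2 hA g (f i) := by
  classical
  induction s using Finset.induction_on with
  | empty => simp [c2_one_right]
  | insert i s hi ih => rw [Finset.prod_insert hi, Finset.prod_insert hi, c2_mul_right, ih]

lemma c1_mul_left (g h d : G) :
    c1 hA (g * h) d = c2 hA g (c1 hA h d) * c1 hA h d * c1 hA g d := by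
  apply Subtype.ext
  simp only [coe_c1, coe_c2, Subgroup.coe_mul]
  simp only [commutatorElement_def]
  group

lemma conj_eq (g : G) (x : A) : g * (x : G) * g⁻¹ = ((c2 hA g x * x : A) : G) := by
  simp only [coe_c2, Subgroup.coe_mul]
  simp only [commutatorElement_def]
  group

lemma mul_eq_c1 (V d : G) : V * d = (c1 hA V d : G) * d * V := by
  simp only [coe_c1]
  simp only [commutatorElement_def]
  group

/-- a group whose fourth term of the lower central series is trivial -/
theorem exists_cl3 (h : Subgroup.lowerCentralSeries (⊤ : Subgroup G) 3 = ⊥) :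
    ∃ A : Subgroup G, IsMulCommutative A ∧ Cl3 A := by
  have h3 : ⁅⁅⁅(⊤ : Subgroup G), (⊤ : Subgroup G)⁆, (⊤ : Subgroup G)⁆, (⊤ : Subgroup G)⁆ = ⊥ := h
  set A : Subgroup G := ⁅(⊤ : Subgroup G), (⊤ : Subgroup G)⁆ with hAdef
  have hAA : ⁅A, A⁆ = ⊥ := by
    have h1 : ⁅⁅(⊤ : Subgroup G), A⁆, (⊤ : Subgroup G)⁆ = ⊥ := by
      rw [Subgroup.commutator_comm ⊤ A]
      exact h3
    exact Subgroup.commutator_commutator_eq_bot_of_rotate h1 h3
  refine ⟨A, ⟨⟨fun a b => Subtype.ext ?_⟩⟩, ⟨fun g k => ?_, fun g x hx k => ?_⟩⟩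
  · have hc := Subgroup.commutator_eq_bot_iff_le_centralizer.1 hAA
    have := Subgroup.mem_centralizer_iff.1 (hc a.2) b b.2
    simpa using this.symm
  · exact Subgroup.commutator_mem_commutator (Subgroup.mem_top g) (Subgroup.mem_top k)
  · have hz : ⁅g, x⁆ ∈ ⁅A, (⊤ : Subgroup G)⁆ := by
      rw [Subgroup.commutator_comm A ⊤]
      exact Subgroup.commutator_mem_commutator (Subgroup.mem_top g) hx
    have hc := Subgroup.commutator_eq_bot_iff_le_centralizer.1 h3
    exact (Subgroup.mem_centralizer_iff.1 (hc hz) k (Subgroup.mem_top k)).symm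

end Vale.Agent.Lib.P329
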