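import Vale.Agent.Lib.P329.Nil.Peel
import Vale.Agent.Lib.P329.Sub.Sub3

namespace Vale.Agent.Lib.P329

open Computability
open scoped IsMulCommutative commutatorElement

variable {G : Type} [Group G] {α : Type} [DecidableEq α]

/-- powers with exponents congruent modulo an exponent of the group -/
lemma pow_congr_of_modEq {H : Type} [Group H] (M : ℕ) (hM : ∀ g : H, g ^ M = 1) (x : H) {a b : ℕ}
    (h : a ≡ b [MOD M]) : x ^ a = x ^ b := by
  rw [pow_eq_pow_mod a (hM x), pow_eq_pow_mod b (hM x)]
  exact congrArg _ h

/-- the correction term only depends on the subword counts modulo an exponent of the group -/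
lemma Ed_congr [Fintype α] {A : Subgroup G} [IsMulCommutative A] (hA : Cl3 A) (φ : α → G) (M : ℕ)
    (hM : ∀ g : G, g ^ M = 1) (d : α) (w w' : List α)
    (h : ∀ u : List α, u.length ≤ 3 → sc u w ≡ sc u w' [MOD M]) : Ed hA φ d w = Ed hA φ d w' := by
  have hMA : ∀ x : A, x ^ M = 1 := fun x => Subtype.ext (by simpa using hM x)
  have k : ∀ (x : A) (u : List α), u.length ≤ 3 → x ^ sc u w = x ^ sc u w' := fun x u hu =>
    pow_congr_of_modEq M hMA x (h u hu)
  unfold Ed
  congr 1
  · congr 1
    · exact Finset.prod_congr rfl fun b _ => k _ _ (by simp)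
    · exact Finset.prod_congr rfl fun b _ => Finset.prod_congr rfl fun b' _ => k _ _ (by simp)
  · exact Finset.prod_congr rfl fun b _ => k _ _ (by simp)

/-- the value of a word only depends on its subword counts of length at most three -/
theorem prod_eq_of_sc [Fintype α] {A : Subgroup G} [IsMulCommutative A] (hA : Cl3 A) (φ : α → G)
    (M : ℕ) (hM : ∀ g : G, g ^ M = 1) (S : Finset α) :
    ∀ w w' : List α, (∀ a ∈ w, a ∈ S) → (∀ a ∈ w', a ∈ S) →
      (∀ u : List α, u.length ≤ 3 → sc u w ≡ sc u w' [MOD M]) →
      (w.map φ).prod = (w'.map φ).prod := by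
  induction S using Finset.induction_on with
  | empty =>
    intro w w' hw hw' _
    have h1 : w = [] := List.eq_nil_iff_forall_not_mem.2 fun a ha => by simpa using hw a ha
    have h2 : w' = [] := List.eq_nil_iff_forall_not_mem.2 fun a ha => by simpa using hw' a ha
    rw [h1, h2]
  | insert d S hd ih =>
    intro w w' hw hw' h
    rw [peel hA φ d w, peel hA φ d w', Ed_congr hA φ M hM d w w' h]
    have hc : φ d ^ w.count d = φ d ^ w'.count d := by
      have := h [d] (by simp)
      rw [sc_singleton, sc_singleton] at this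
      exact pow_congr_of_modEq M hM _ this
    have hmem : ∀ v : List α, (∀ a ∈ v, a ∈ insert d S) →
        ∀ a ∈ v.filter fun a => decide (a ≠ d), a ∈ S := by
      intro v hv a ha
      rw [List.mem_filter] at ha
      have h1 := hv a ha.1
      have h2 : a ≠ d := by simpa using ha.2
      exact (Finset.mem_insert.1 h1).resolve_left h2
    have hnot : ∀ v : List α, d ∉ v.filter fun a => decide (a ≠ d) := by
      intro v hv
      rw [List.mem_filter] at hv
      simpa using hv.2
    have hf := ih (w.filter fun a => decide (a ≠ d)) (w'.filter fun a => decide (a ≠ d))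
      (hmem w hw) (hmem w' hw') (by
        intro u hu
        by_cases hdu : d ∈ u
        · rw [sc_eq_zero_of_not_mem d u hdu _ (hnot w), sc_eq_zero_of_not_mem d u hdu _ (hnot w')]
        · rw [sc_filter_of_not_mem d u hdu, sc_filter_of_not_mem d u hdu]
          exact h u hu)
    rw [hc, hf]

/-- Every language recognized by a finite nilpotent group of class at most three has generalized
star height at most one. -/
theorem hasHeight_nil3 [Finite G] (h : Subgroup.lowerCentralSeries (⊤ : Subgroup G) 3 = ⊥) [Finite α] (φ : α → G)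
    (P : G → Prop) : HasHeight 1 (langOf fun w : List α => P (w.map φ).prod) := by
  obtain ⟨A, hAc, hA⟩ := exists_cl3 h
  have : Fintype α := Fintype.ofFinite α
  set M : ℕ := Nat.card G with hMdef
  have hM0 : M ≠ 0 := Nat.card_pos.ne'
  have : NeZero M := ⟨hM0⟩
  have hM : ∀ g : G, g ^ M = 1 := fun g => pow_card_eq_one'
  have : Finite {u : List α // u.length ≤ 3} := List.finite_length_le α 3
  have hmeas : Meas (fun (w : List α) (u : {u : List α // u.length ≤ 3}) => (sc u.1 w : ZMod M)) :=
    Meas.pi fun u => pmeas_sc u.1 u.2 M hM0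
  refine (hmeas fun t => ∃ w' : List α,
    (fun u : {u : List α // u.length ≤ 3} => (sc u.1 w' : ZMod M)) = t ∧
      P (w'.map φ).prod).of_iff fun w => ?_
  rw [mem_langOf, mem_langOf]
  constructor
  · intro hw
    exact ⟨w, rfl, hw⟩
  · rintro ⟨w', h1, h2⟩
    have : (w.map φ).prod = (w'.map φ).prod := by
      refine prod_eq_of_sc hA φ M hM Finset.univ w w' (fun _ _ => Finset.mem_univ _)
        (fun _ _ => Finset.mem_univ _) fun u hu => ?_
      have := congrFun h1 ⟨u, hu⟩
      exact ((ZMod.natCast_eq_natCast_iff _ _ _).1 this).symm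
    rw [this]
    exact h2

end Vale.Agent.Lib.P329
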