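import Vale.Agent.Lib.P329.Nil.Comm
import Vale.Agent.Lib.P329.Sub.SubCount

namespace Vale.Agent.Lib.P329

open scoped IsMulCommutative commutatorElement

variable {G : Type} [Group G] {A : Subgroup G} [IsMulCommutative A] (hA : Cl3 A)
variable {α : Type} [DecidableEq α] [Fintype α] (φ : α → G)

omit [DecidableEq α] in
/-- a product of powers whose exponents vanish off `e` -/
lemma prod_pow_ite_single [DecidableEq α] {M : Type} [CommMonoid M] (e : α) (x : α → M)
    (n : α → ℕ) : ∏ b, x b ^ (if b = e then n b else 0) = x e ^ n e := by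
  rw [Finset.prod_eq_single e]
  · simp
  · intro b _ hb
    simp [hb]
  · intro h
    exact absurd (Finset.mem_univ e) h

omit [DecidableEq α] in
/-- a double product of powers whose exponents vanish off the row `e` -/
lemma prod_prod_pow_ite_single [DecidableEq α] {M : Type} [CommMonoid M] (e : α) (x : α → α → M)
    (n : α → ℕ) : ∏ b, ∏ b', x b b' ^ (if b = e then n b' else 0) = ∏ b', x e b' ^ n b' := by
  rw [Finset.prod_eq_single e]
  · simp
  · intro b _ hb
    simp [hb]
  · intro h
    exact absurd (Finset.mem_univ e) h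

/-- rearranging six factors -/
lemma mul_six {M : Type} [CommMonoid M] (a x b y c z : M) :
    (a * x) * (b * y) * (c * z) = a * b * c * (x * y * z) := by
  simp only [mul_assoc, mul_comm, mul_left_comm]

/-- the bookkeeping identity behind `Ed_snoc_self`, in an arbitrary commutative monoid -/
lemma Ed_aux {M : Type} [CommMonoid M] (d : α) (w : List α) (g : α → M) (f : α → α → M)
    (gd : g d = 1) (fd : ∀ b, f b d = 1) :
    (∏ b, g b ^ sc [b] w) * (∏ b, ∏ b', f b b' ^ sc [b, b'] w) * (∏ b', f d b' ^ sc [b', d] w) =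
      (∏ b', f d b' ^ sc [b'] (w.filter fun a => decide (a ≠ d))) ^ w.count d *
        ((∏ b, g b ^ sc [b] (w.filter fun a => decide (a ≠ d))) *
          ∏ b, ∏ b', f b b' ^ sc [b, b'] (w.filter fun a => decide (a ≠ d))) := by
  have hdv : d ∉ w.filter fun a => decide (a ≠ d) := by
    simp
  have h1 : ∀ b, g b ^ sc [b] (w.filter fun a => decide (a ≠ d)) = g b ^ sc [b] w := by
    intro b
    by_cases hb : b = d
    · rw [hb, gd, one_pow, one_pow]
    · rw [sc_filter_of_not_mem d [b] (by simpa using Ne.symm hb)]
  have h2 : ∀ b b', f b b' ^ sc [b, b'] (w.filter fun a => decide (a ≠ d))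
      = f b b' ^ (if b = d then 0 else sc [b, b'] w) := by
    intro b b'
    by_cases hb : b = d
    · rw [if_pos hb, hb, sc_eq_zero_of_not_mem d [d, b'] (by simp) _ hdv]
    · rw [if_neg hb]
      by_cases hb' : b' = d
      · rw [hb', fd, one_pow, one_pow]
      · rw [sc_filter_of_not_mem d [b, b'] (by
          simp only [List.mem_cons, List.not_mem_nil, or_false, not_or]
          exact ⟨Ne.symm hb, Ne.symm hb'⟩)]
  have h3 : ∀ b', f d b' ^ sc [b'] (w.filter fun a => decide (a ≠ d)) = f d b' ^ sc [b'] w := by
    intro b'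
    by_cases hb' : b' = d
    · rw [hb', fd, one_pow, one_pow]
    · rw [sc_filter_of_not_mem d [b'] (by simpa using Ne.symm hb')]
  have hsplit : ∏ b, ∏ b', f b b' ^ sc [b, b'] w =
      (∏ b, ∏ b', f b b' ^ (if b = d then 0 else sc [b, b'] w)) * ∏ b', f d b' ^ sc [d, b'] w := by
    rw [← prod_prod_pow_ite_single d f (fun b' => sc [d, b'] w), ← Finset.prod_mul_distrib]
    refine Finset.prod_congr rfl fun b _ => ?_
    rw [← Finset.prod_mul_distrib]
    refine Finset.prod_congr rfl fun b' _ => ?_
    rw [← pow_add]
    by_cases hb : b = d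
    · rw [hb]
      simp
    · simp [hb]
  have hpow : (∏ b', f d b' ^ sc [b'] w) ^ w.count d =
      (∏ b', f d b' ^ sc [d, b'] w) * ∏ b', f d b' ^ sc [b', d] w := by
    rw [← Finset.prod_pow, ← Finset.prod_mul_distrib]
    refine Finset.prod_congr rfl fun b' _ => ?_
    by_cases hb' : b' = d
    · rw [hb', fd]
      simp
    · rw [← pow_mul, ← pow_add, sc_singleton, mul_comm, count_mul_count d b' (Ne.symm hb')]
  simp only [h1, h2, h3]
  rw [hpow, hsplit]
  simp only [mul_assoc, mul_comm, mul_left_comm]

/-- the commutator of the value of a word with an element -/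
theorem c1_prod (d : G) (v : List α) :
    c1 hA (v.map φ).prod d = (∏ b, c1 hA (φ b) d ^ sc [b] v) *
      ∏ b, ∏ b', c2 hA (φ b) (c1 hA (φ b') d) ^ sc [b, b'] v := by
  induction v with
  | nil => simp [c1_one_left]
  | cons e v ih =>
    rw [List.map_cons, List.prod_cons, c1_mul_left, ih, c2_mul_right, c2_prod_right,
      c2_prod_right]
    have h2 : ∀ b, c2 hA (φ e) (∏ b', c2 hA (φ b) (c1 hA (φ b') d) ^ sc [b, b'] v) = 1 := by
      intro b
      rw [c2_prod_right]
      refine Finset.prod_eq_one fun b' _ => ?_
      rw [c2_pow_right, c2_c2, one_pow]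
    simp only [h2, Finset.prod_const_one, mul_one, c2_pow_right, sc_cons_cons, pow_add,
      Finset.prod_mul_distrib, sc_nil]
    rw [prod_pow_ite_single e (fun b => c1 hA (φ b) d) (fun _ => 1),
      prod_prod_pow_ite_single e (fun b b' => c2 hA (φ b) (c1 hA (φ b') d)) (fun b' => sc [b'] v),
      pow_one]
    simp only [mul_assoc, mul_comm, mul_left_comm]

/-- the correction term that appears when all the occurrences of `d` are moved to the left -/
noncomputable def Ed (d : α) (w : List α) : A :=
  (∏ b, c1 hA (φ b) (φ d) ^ sc [b, d] w) *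
    (∏ b, ∏ b', c2 hA (φ b) (c1 hA (φ b') (φ d)) ^ sc [b, b', d] w) *
    (∏ b', c2 hA (φ d) (c1 hA (φ b') (φ d)) ^ sc [b', d, d] w)

/-- the correction term does not change when a letter other than `d` is appended -/
lemma Ed_snoc_of_ne (d e : α) (h : e ≠ d) (w : List α) : Ed hA φ d (w ++ [e]) = Ed hA φ d w := by
  have key : ∀ u : List α, sc (u ++ [d]) (w ++ [e]) = sc (u ++ [d]) w := by
    intro u
    rw [sc_snoc, if_neg (Ne.symm h), add_zero]
  have k1 : ∀ b, sc [b, d] (w ++ [e]) = sc [b, d] w := fun b => key [b]
  have k2 : ∀ b b', sc [b, b', d] (w ++ [e]) = sc [b, b', d] w := fun b b' => key [b, b']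
  simp only [Ed, k1, k2]

/-- the change of the correction term when `d` is appended -/
lemma Ed_snoc_self (d : α) (w : List α) :
    Ed hA φ d (w ++ [d]) = Ed hA φ d w *
      (c2 hA (φ d) (c1 hA ((w.filter fun a => decide (a ≠ d)).map φ).prod (φ d)) ^ w.count d *
        c1 hA ((w.filter fun a => decide (a ≠ d)).map φ).prod (φ d)) := by
  have hy := c1_prod hA φ (φ d) (w.filter fun a => decide (a ≠ d))
  have hcy : c2 hA (φ d) (c1 hA ((w.filter fun a => decide (a ≠ d)).map φ).prod (φ d)) =
      ∏ b', c2 hA (φ d) (c1 hA (φ b') (φ d)) ^ sc [b'] (w.filter fun a => decide (a ≠ d)) := by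
    rw [hy, c2_mul_right]
    simp only [c2_prod_right, c2_pow_right, c2_c2, one_pow, Finset.prod_const_one, mul_one]
  have key : ∀ u : List α, sc (u ++ [d]) (w ++ [d]) = sc (u ++ [d]) w + sc u w := by
    intro u
    rw [sc_snoc, if_pos rfl]
  have k1 : ∀ b, sc [b, d] (w ++ [d]) = sc [b, d] w + sc [b] w := fun b => key [b]
  have k2 : ∀ b b', sc [b, b', d] (w ++ [d]) = sc [b, b', d] w + sc [b, b'] w :=
    fun b b' => key [b, b']
  have aux := Ed_aux d w (fun b => c1 hA (φ b) (φ d))
    (fun b b' => c2 hA (φ b) (c1 hA (φ b') (φ d))) (c1_self hA (φ d))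
    (fun b => by simp only [c1_self, c2_one_right])
  rw [hcy, hy, ← aux]
  simp only [Ed, k1, k2, pow_add, Finset.prod_mul_distrib]
  exact mul_six _ _ _ _ _ _

/-- all the occurrences of the letter `d` are moved to the left -/
theorem peel (d : α) (w : List α) :
    (w.map φ).prod =
      (Ed hA φ d w : G) * φ d ^ w.count d * ((w.filter fun a => decide (a ≠ d)).map φ).prod := by
  induction w using List.reverseRecOn with
  | nil => simp [Ed]
  | append_singleton w e ih =>
    rw [List.map_append, List.prod_append, ih]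
    by_cases h : e = d
    · subst h
      have hf : (w ++ [e]).filter (fun a => decide (a ≠ e)) = w.filter fun a => decide (a ≠ e) := by
        simp [List.filter_append]
      have hc : (w ++ [e]).count e = w.count e + 1 := by simp
      rw [hf, hc, Ed_snoc_self]
      set V : G := ((w.filter fun a => decide (a ≠ e)).map φ).prod with hV
      set n : ℕ := w.count e with hn
      set y : A := c1 hA V (φ e) with hy
      have h1 : V * φ e = (y : G) * φ e * V := mul_eq_c1 hA V (φ e)
      have h2 : φ e ^ n * (y : G) = ((c2 hA (φ e) y ^ n * y : A) : G) * φ e ^ n := by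
        have h3 := conj_eq hA (φ e ^ n) y
        rw [c2_pow_left] at h3
        rw [← h3]
        group
      simp only [List.map_cons, List.map_nil, List.prod_cons, List.prod_nil, mul_one]
      calc (Ed hA φ e w : G) * φ e ^ n * V * φ e
          = (Ed hA φ e w : G) * φ e ^ n * (V * φ e) := by group
        _ = (Ed hA φ e w : G) * (φ e ^ n * (y : G)) * φ e * V := by rw [h1]; group
        _ = (Ed hA φ e w : G) * ((c2 hA (φ e) y ^ n * y : A) : G) * (φ e ^ n * φ e) * V := by
            rw [h2]; group
        _ = ((Ed hA φ e w * (c2 hA (φ e) y ^ n * y) : A) : G) * φ e ^ (n + 1) * V := by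
            rw [pow_succ]
            simp only [Subgroup.coe_mul]
    · have hf : (w ++ [e]).filter (fun a => decide (a ≠ d))
          = (w.filter fun a => decide (a ≠ d)) ++ [e] := by
        simp [List.filter_append, h]
      have hc : (w ++ [e]).count d = w.count d := by
        simp [h]
      rw [hf, hc, Ed_snoc_of_ne hA φ d e h, List.map_append, List.prod_append]
      group

end Vale.Agent.Lib.P329
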